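import Vale.Agent.P075.Defs
import Vale.Agent.P075.Main

namespace Vale.Agent.Results.P075.Dyadic

open Vale.Agent.P075

/-- The dyadic triangular Hilbert form is bounded on `L^3 × L^3 × L^3`, uniformly in the finite
set of scales and in the coefficients. -/
theorem result : ∃ C : ℝ, ∀ (S : Finset ℤ) (ε : ℤ → ℝ), (∀ k, |ε k| ≤ 1) →
    ∀ F₀ F₁ F₂ : ℝ × ℝ → ℝ, Admissible F₀ → Admissible F₁ → Admissible F₂ →
      (∀ k : ℤ, Summable fun I : xorTriples => localForm k I F₀ F₁ F₂) ∧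
      |dyadicForm S ε F₀ F₁ F₂| ≤ C * (normL3 F₀ * normL3 F₁ * normL3 F₂) := by
  refine ⟨288, fun S ε hε F₀ F₁ F₂ h0 h1 h2 => ⟨summable_local h0, abs_le.2 ⟨?_, ?_⟩⟩⟩
  · have := one_side S (fun k => -ε k) (fun k => by simpa using hε k) h0 h1 h2
    rw [form_neg] at this
    linarith
  · exact one_side S ε hε h0 h1 h2

end Vale.Agent.Results.P075.Dyadic
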